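import Vale.Agent.P078G.DFin

/-- Every masa of every von Neumann algebra has the so-paving property, with at most
`40000000000 / ε ^ 2` pieces. -/
theorem Vale.Agent.Results.P078.Full.result {H : Type*} [NormedAddCommGroup H]
    [InnerProductSpace ℂ H] [CompleteSpace H] (M : VonNeumannAlgebra H)
    (A : StarSubalgebra ℂ (H →L[ℂ] H)) (sub : ∀ a ∈ A, a ∈ M)
    (abelian : ∀ a ∈ A, ∀ b ∈ A, a * b = b * a)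
    (maximal : ∀ B : StarSubalgebra ℂ (H →L[ℂ] H), A ≤ B → (∀ b ∈ B, b ∈ M) →
      (∀ a ∈ B, ∀ b ∈ B, a * b = b * a) → B = A)
    (ε : ℝ) (hε : 0 < ε) (hε1 : ε < 1) :
    ∃ r : ℕ, 1 ≤ r ∧ (r : ℝ) ≤ 40000000000 / ε ^ 2 ∧ ∀ x ∈ M, IsSelfAdjoint x →
      ∀ (F : Finset H) (δ : ℝ), 0 < δ → ∃ (p : Fin r → H →L[ℂ] H) (a q : H →L[ℂ] H),
        (∀ i, p i ∈ A ∧ IsStarProjection (p i)) ∧ (∀ i j, i ≠ j → p i * p j = 0) ∧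
        ∑ i, p i = 1 ∧ a ∈ A ∧ IsSelfAdjoint a ∧ ‖a‖ ≤ ‖x‖ ∧ q ∈ M ∧ IsStarProjection q ∧
        (∀ ξ ∈ F, ‖(1 - q) ξ‖ < δ) ∧ ‖q * (∑ i, p i * x * p i - a) * q‖ ≤ ε * ‖x‖ :=
  Vale.Agent.P078G.so_paving M A sub abelian maximal ε hε hε1
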