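import Vale.Agent.P078.VN

open scoped ComplexOrder

/-- Every masa of a von Neumann algebra with a faithful normal tracial state has the so-paving
property, with at most `2000000 / ε ^ 2` pieces. -/
theorem Vale.Agent.Results.P078.Tracial.result {H : Type*} [NormedAddCommGroup H]
    [InnerProductSpace ℂ H] [CompleteSpace H]
    (M : VonNeumannAlgebra H) (τ : M.toStarSubalgebra →ₗ[ℂ] ℂ) (unital : τ 1 = 1)
    (positive : ∀ x, 0 ≤ τ (star x * x)) (tracial : ∀ x y, τ (x * y) = τ (y * x))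
    (faithful : ∀ x, τ (star x * x) = 0 → x = 0)
    (normal : @ContinuousOn _ _ (TopologicalSpace.induced
      (fun x : M.toStarSubalgebra => ContinuousLinearMapWOT.ofCLM x.1) inferInstance) _ τ
      {x | ‖x.1‖ ≤ 1})
    (A : StarSubalgebra ℂ (H →L[ℂ] H)) (sub : ∀ a ∈ A, a ∈ M)
    (abelian : ∀ a ∈ A, ∀ b ∈ A, a * b = b * a)
    (maximal : ∀ B : StarSubalgebra ℂ (H →L[ℂ] H), A ≤ B → (∀ b ∈ B, b ∈ M) →
      (∀ a ∈ B, ∀ b ∈ B, a * b = b * a) → B = A)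
    (ε : ℝ) (hε : 0 < ε) (hε1 : ε < 1) :
    ∃ r : ℕ, 1 ≤ r ∧ (r : ℝ) ≤ 2000000 / ε ^ 2 ∧ ∀ x ∈ M, IsSelfAdjoint x →
      ∀ (F : Finset H) (δ : ℝ), 0 < δ → ∃ (p : Fin r → H →L[ℂ] H) (a q : H →L[ℂ] H),
        (∀ i, p i ∈ A ∧ IsStarProjection (p i)) ∧ (∀ i j, i ≠ j → p i * p j = 0) ∧
        ∑ i, p i = 1 ∧ a ∈ A ∧ IsSelfAdjoint a ∧ ‖a‖ ≤ ‖x‖ ∧ q ∈ M ∧ IsStarProjection q ∧
        (∀ ξ ∈ F, ‖(1 - q) ξ‖ < δ) ∧ ‖q * (∑ i, p i * x * p i - a) * q‖ ≤ ε * ‖x‖ :=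
  Vale.Agent.P078.so_paving M τ unital positive tracial faithful normal A sub abelian maximal
    ε hε hε1
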